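import Vale.Agent.P254.S.Iface
import Vale.Agent.P254.H545.Gauge

/-!
P254, block S, row S-GAUGE: `StmtEX → StmtPush → StmtGauge`.  Also: the standard Gaussian as `Reg`,
the probability measures behind `Ex`, linear change of variables, Gaussian integration by parts.
-/

open MeasureTheory Matrix Filter Topology
open scoped Matrix MatrixOrder

noncomputable section

namespace Vale.Agent.P254.S.H545

open Vale.Agent.P227.M

variable {n : ℕ}

/-! ### the Gaussian potential -/

theorem Q_eq : (Q : E n → ℝ) = fun z => (1 : ℝ) / 2 * ‖z‖ ^ 2 := by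
  funext z; unfold Q; ring

theorem reg_Q : Reg (Q : E n → ℝ) 1 1 := by
  rw [Q_eq]; exact (MM.Start102.nice_quad one_pos le_rfl).toReg

theorem pd_Q (j : Fin n) (z : E n) : pd j Q z = z j := by
  rw [Q_eq, MM.Start102.pd_quad]; simp

/-! ### the law -/

/-- the density of the law of `e^{-V}` -/
def dens (V : E n → ℝ) (x : E n) : NNReal := Real.toNNReal (Real.exp (-V x) / ∫ x, Real.exp (-V x))

/-- the probability measure with density proportional to `e^{-V}` -/
def law (V : E n → ℝ) : Measure (E n) := volume.withDensity fun x => (dens V x : ENNReal)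

section law

variable {V : E n → ℝ} {c C : ℝ}

theorem coe_dens (h : Reg V c C) (x : E n) :
    (dens V x : ℝ) = Real.exp (-V x) / ∫ x, Real.exp (-V x) :=
  Real.coe_toNNReal _ (div_nonneg (Real.exp_pos _).le h.Z_pos.le)

theorem meas_dens (h : Reg V c C) : Measurable (dens V) :=
  ((Real.measurable_exp.comp h.cont.measurable.neg).div_const _).real_toNNReal

theorem int_law (h : Reg V c C) (f : E n → ℝ) : ∫ x, f x ∂(law V) = Ex V f := by
  unfold law Ex
  rw [integral_withDensity_eq_integral_smul (meas_dens h), ← integral_div]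
  refine integral_congr_ae (Eventually.of_forall fun x => ?_)
  simp only [NNReal.smul_def, smul_eq_mul, coe_dens h]
  ring

theorem integrable_law (h : Reg V c C) (f : E n → ℝ) :
    Integrable f (law V) ↔ Integrable fun x => f x * Real.exp (-V x) := by
  unfold law
  rw [integrable_withDensity_iff_integrable_smul (meas_dens h)]
  have hZ := h.Z_pos
  constructor
  · intro h1
    refine (h1.const_mul (∫ x, Real.exp (-V x))).congr (Eventually.of_forall fun x => ?_)
    simp only [NNReal.smul_def, smul_eq_mul, coe_dens h]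
    field_simp
  · intro h1
    refine (h1.const_mul (∫ x, Real.exp (-V x))⁻¹).congr (Eventually.of_forall fun x => ?_)
    simp only [NNReal.smul_def, smul_eq_mul, coe_dens h]
    field_simp

theorem isProb_law (h : Reg V c C) : IsProbabilityMeasure (law V) := by
  refine ⟨?_⟩
  have h1 : ∫ _x, (1 : ℝ) ∂(law V) = 1 := by
    rw [int_law h]
    unfold Ex
    simp only [one_mul]
    exact div_self h.Z_pos.ne'
  have h2 : Integrable (fun _ : E n => (1 : ℝ)) (law V) := by
    rw [integrable_law h]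
    simpa using h.integrable_exp
  have h3 : IsFiniteMeasure (law V) := by
    rcases (integrable_const_iff.1 h2) with h4 | h4
    · simp at h4
    · exact h4
  rw [integral_const, smul_eq_mul, mul_one] at h1
  have h4 := ENNReal.ofReal_toReal (measure_ne_top (law V) Set.univ)
  rw [← h4]
  unfold Measure.real at h1
  rw [h1]
  simp

theorem integrable_law_gr (h : Reg V c C) {f : E n → ℝ} (hf : Gr f) : Integrable f (law V) :=
  (integrable_law h f).2 (h.integrable_gr hf)

theorem law_sq (h : Reg V c C) : Integrable (fun x : E n => ‖x‖ ^ 2) (law V) :=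
  integrable_law_gr h (Gr.norm.pow 2)

/-- two finite measures with the same expectations of measurable indicators -/
theorem eq_of_integral {μ ν : Measure (E n)} [IsProbabilityMeasure μ] [IsProbabilityMeasure ν]
    (h : ∀ s : Set (E n), MeasurableSet s →
      ∫ x, s.indicator (fun _ => (1 : ℝ)) x ∂μ = ∫ x, s.indicator (fun _ => (1 : ℝ)) x ∂ν) :
    μ = ν := by
  ext s hs
  have h1 := h s hs
  rw [integral_indicator_const _ hs, integral_indicator_const _ hs] at h1
  simp only [smul_eq_mul, mul_one] at h1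
  unfold Measure.real at h1
  exact (ENNReal.toReal_eq_toReal_iff' (measure_ne_top _ _) (measure_ne_top _ _)).1 h1

end law

/-! ### linear change of variables -/

section lin

/-- `lin A` as a continuous linear map -/
def linL (A : Matrix (Fin n) (Fin n) ℝ) : E n →L[ℝ] E n := P254.H545.act A

theorem linL_apply (A : Matrix (Fin n) (Fin n) ℝ) (x : E n) : linL A x = lin A x := rfl

theorem lin_mul (A B : Matrix (Fin n) (Fin n) ℝ) (x : E n) : lin (A * B) x = lin A (lin B x) := by
  unfold lin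
  simp [Matrix.mulVec_mulVec]

theorem lin_one (x : E n) : lin (1 : Matrix (Fin n) (Fin n) ℝ) x = x := by
  unfold lin
  simp

theorem det_linL (A : Matrix (Fin n) (Fin n) ℝ) :
    LinearMap.det (linL A : E n →ₗ[ℝ] E n) = A.det := by
  have h1 : (linL A : E n →ₗ[ℝ] E n) = Matrix.toEuclideanLin A := rfl
  rw [h1, Matrix.toEuclideanLin_eq_toLin_orthonormal, LinearMap.det_toLin]

theorem integral_comp_lin {A : Matrix (Fin n) (Fin n) ℝ} (hA : A.det ≠ 0) (f : E n → ℝ) :
    ∫ x, f (lin A x) = |A.det|⁻¹ * ∫ y, f y := by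
  have hd : LinearMap.det (linL A : E n →ₗ[ℝ] E n) ≠ 0 := by rw [det_linL]; exact hA
  have h1 := Measure.map_linearMap_addHaar_eq_smul_addHaar (volume : Measure (E n)) hd
  have hinj : MeasurableEmbedding (linL A : E n → E n) := by
    exact ((LinearMap.equivOfDetNeZero (linL A : E n →ₗ[ℝ] E n) hd).toContinuousLinearEquiv
      ).toHomeomorph.measurableEmbedding
  have h2 : ∫ y, f y ∂(Measure.map (linL A) volume) = ∫ x, f (linL A x) := hinj.integral_map f
  have h3 : Measure.map (linL A) (volume : Measure (E n))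
      = ENNReal.ofReal |(LinearMap.det (linL A : E n →ₗ[ℝ] E n))⁻¹| • volume := h1
  rw [h3, integral_smul_measure, det_linL] at h2
  rw [ENNReal.toReal_ofReal (abs_nonneg _), abs_inv, smul_eq_mul] at h2
  exact h2.symm

theorem Ex_lin {A : Matrix (Fin n) (Fin n) ℝ} (hA : A.det ≠ 0) (V f : E n → ℝ) :
    Ex (fun x => V (lin A x)) (fun x => f (lin A x)) = Ex V f := by
  unfold Ex
  have h1 := integral_comp_lin hA fun y => f y * Real.exp (-V y)
  have h2 := integral_comp_lin hA fun y => Real.exp (-V y)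
  rw [h1, h2]
  have h3 : |A.det|⁻¹ ≠ 0 := inv_ne_zero (abs_ne_zero.2 hA)
  rw [mul_div_mul_left _ _ h3]

theorem qf_le_of_bdd {V : E n → ℝ} (hV : ContDiff ℝ 2 V) {C : ℝ}
    (hC : ∀ x, ‖iteratedFDeriv ℝ 2 V x‖ ≤ C) (x v : E n) : qf (hess V x) v ≤ C * ‖v‖ ^ 2 := by
  rw [qf_hess_eq hV]
  have h1 := norm_fderiv_fderiv_le hC x
  have h3 := (fderiv ℝ (fderiv ℝ V) x).le_opNorm₂ v v
  rw [Real.norm_eq_abs] at h3
  calc fderiv ℝ (fderiv ℝ V) x v v ≤ ‖fderiv ℝ (fderiv ℝ V) x‖ * ‖v‖ * ‖v‖ :=
        (le_abs_self _).trans h3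
    _ ≤ C * ‖v‖ * ‖v‖ := by gcongr
    _ = C * ‖v‖ ^ 2 := by ring

theorem fderiv_comp_lin {F : Type*} [NormedAddCommGroup F] [NormedSpace ℝ F] {V : E n → F}
    (hV : Differentiable ℝ V) (A : Matrix (Fin n) (Fin n) ℝ) (y : E n) :
    HasFDerivAt (fun y => V (lin A y)) ((fderiv ℝ V (lin A y)).comp (linL A)) y :=
  (hV (lin A y)).hasFDerivAt.comp y (linL A).hasFDerivAt

theorem contDiff_lin {V : E n → ℝ} {m : WithTop ℕ∞} (hV : ContDiff ℝ m V)
    (A : Matrix (Fin n) (Fin n) ℝ) : ContDiff ℝ m (fun y => V (lin A y)) :=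
  hV.comp (linL A).contDiff

theorem qf_hess_lin {V : E n → ℝ} (hV : ContDiff ℝ 2 V) (A : Matrix (Fin n) (Fin n) ℝ)
    (y v : E n) : qf (hess (fun y => V (lin A y)) y) v = qf (hess V (lin A y)) (lin A v) := by
  have hd : Differentiable ℝ V := hV.differentiable (by norm_num)
  have hd2 : Differentiable ℝ (fderiv ℝ V) :=
    (hV.fderiv_right (m := 1) (by norm_num)).differentiable (by norm_num)
  rw [qf_hess_eq (contDiff_lin hV A), qf_hess_eq hV]
  have e1 : fderiv ℝ (fun y => V (lin A y)) = fun y => (fderiv ℝ V (lin A y)).comp (linL A) := by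
    funext y
    exact (fderiv_comp_lin hd A y).fderiv
  rw [e1]
  have h3 : HasFDerivAt (fun y => (fderiv ℝ V (lin A y)).comp (linL A))
      ((ContinuousLinearMap.compL ℝ (E n) (E n) ℝ).flip (linL A) ∘L
        ((fderiv ℝ (fderiv ℝ V) (lin A y)).comp (linL A))) y :=
    (((ContinuousLinearMap.compL ℝ (E n) (E n) ℝ).flip (linL A)).hasFDerivAt).comp y
      (fderiv_comp_lin hd2 A y)
  rw [h3.fderiv]
  rfl

/-- a regular potential composed with an invertible linear map is regular -/
theorem reg_lin {V : E n → ℝ} {c C : ℝ} (h : Reg V c C) {A : Matrix (Fin n) (Fin n) ℝ}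
    (hA : A.det ≠ 0) : ∃ c' C', Reg (fun y => V (lin A y)) c' C' := by
  have hN : A⁻¹ * A = 1 := Matrix.nonsing_inv_mul _ (isUnit_iff_ne_zero.2 hA)
  set N := A⁻¹
  have hc := h.c_pos
  have hlow : ∀ v : E n, ‖v‖ ≤ (‖linL N‖ + 1) * ‖linL A v‖ := by
    intro v
    have e : v = linL N (linL A v) := by
      rw [linL_apply, linL_apply, ← lin_mul, hN, lin_one]
    calc ‖v‖ = ‖linL N (linL A v)‖ := by rw [← e]
      _ ≤ ‖linL N‖ * ‖linL A v‖ := (linL N).le_opNorm _
      _ ≤ (‖linL N‖ + 1) * ‖linL A v‖ := by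
        gcongr
        linarith
  have hN0 : 0 < ‖linL N‖ + 1 := by positivity
  have hb : ∀ k : ℕ, 2 ≤ k → ∃ B : ℝ, ∀ x, ‖iteratedFDeriv ℝ k (fun y => V (lin A y)) x‖ ≤ B := by
    intro k hk
    obtain ⟨B, hB⟩ := h.bdd k hk
    refine ⟨‖linL A‖ ^ k * B, fun y => ?_⟩
    have e1 : iteratedFDeriv ℝ k (fun y => V (lin A y)) y
        = (iteratedFDeriv ℝ k V (linL A y)).compContinuousLinearMap fun _ => linL A :=
      (linL A).iteratedFDeriv_comp_right h.smooth y (by exact_mod_cast le_top)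
    rw [e1]
    refine (ContinuousMultilinearMap.norm_compContinuousLinearMap_le _ _).trans ?_
    rw [Finset.prod_const, Finset.card_univ, Fintype.card_fin, mul_comm]
    exact mul_le_mul_of_nonneg_left (hB _) (by positivity)
  obtain ⟨C', hC'⟩ := hb 2 le_rfl
  refine ⟨c / (‖linL N‖ + 1) ^ 2, C', by positivity, contDiff_lin h.smooth A,
    fun y v => ?_, fun y v => qf_le_of_bdd (contDiff_lin h.C2 A) hC' y v, hb⟩
  rw [qf_hess_lin h.C2]
  refine le_trans ?_ (h.lower _ _)
  rw [← linL_apply]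
  have h1 : ‖v‖ ^ 2 ≤ ((‖linL N‖ + 1) * ‖linL A v‖) ^ 2 :=
    pow_le_pow_left₀ (norm_nonneg _) (hlow v) 2
  rw [div_mul_eq_mul_div, div_le_iff₀ (by positivity)]
  calc c * ‖v‖ ^ 2 ≤ c * ((‖linL N‖ + 1) * ‖linL A v‖) ^ 2 := by gcongr
    _ = _ := by ring

/-- the image of the law under a linear map -/
theorem law_map {V : E n → ℝ} {c C : ℝ} (h : Reg V c C) {L : Matrix (Fin n) (Fin n) ℝ}
    (hL : L.det ≠ 0) : (law V).map (P254.H545.act L) = law fun x => V (lin L⁻¹ x) := by
  have hLi : L⁻¹.det ≠ 0 := by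
    rw [Matrix.det_nonsing_inv]
    simpa using hL
  obtain ⟨c', C', h'⟩ := reg_lin h hLi
  have hu : IsUnit L.det := isUnit_iff_ne_zero.2 hL
  have := isProb_law h
  have := isProb_law h'
  have hm : Measurable (P254.H545.act L : E n → E n) := (P254.H545.act L).continuous.measurable
  have : IsProbabilityMeasure ((law V).map (P254.H545.act L)) :=
    Measure.isProbabilityMeasure_map hm.aemeasurable
  refine eq_of_integral fun s hs => ?_
  rw [integral_map hm.aemeasurable ((measurable_const.indicator hs).aestronglyMeasurable),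
    int_law h, int_law h']
  have h1 := Ex_lin hLi V fun x => s.indicator (fun _ => (1 : ℝ)) (lin L x)
  rw [show (fun x => s.indicator (fun _ => (1 : ℝ)) (P254.H545.act L x))
    = fun x => s.indicator (fun _ => (1 : ℝ)) (lin L x) from rfl, ← h1]
  congr 1
  funext x
  rw [← lin_mul, Matrix.mul_nonsing_inv _ hu, lin_one]

end lin

/-! ### integration by parts against `e^{-V}` -/

theorem ibp {V : E n → ℝ} {c C : ℝ} (h : Reg V c C) {f : E n → ℝ} (hf : ContDiff ℝ 1 f)
    (hg : Gr f) (i : Fin n) (hg' : Gr (pd i f)) :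
    Ex V (fun x => pd i V x * f x) = Ex V (pd i f) := by
  have hd : Differentiable ℝ f := hf.differentiable (by norm_num)
  have hV : Differentiable ℝ V := h.C2.differentiable (by norm_num)
  have he : ∀ x, HasFDerivAt (fun x => Real.exp (-V x)) (Real.exp (-V x) • -(fderiv ℝ V x)) x :=
    fun x => (hV x).hasFDerivAt.neg.exp
  have he' : ∀ x, fderiv ℝ (fun x => Real.exp (-V x)) x (ei i) = -(pd i V x * Real.exp (-V x)) := by
    intro x
    rw [(he x).fderiv]
    simp only [_root_.smul_apply, _root_.neg_apply, smul_eq_mul, pd]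
    ring
  have h1 := integral_mul_fderiv_eq_neg_fderiv_mul_of_integrable (μ := (volume : Measure (E n)))
    (f := f) (g := fun x => Real.exp (-V x)) (v := ei i) ?_ ?_ ?_ (fun x _ => hd x)
    (fun x _ => (he x).differentiableAt)
  · unfold Ex
    congr 1
    simp only [he'] at h1
    have h2 : ∫ x, f x * -(pd i V x * Real.exp (-V x)) = -∫ x, pd i V x * f x * Real.exp (-V x) := by
      rw [← integral_neg]
      congr 1
      funext x
      ring
    rw [h2] at h1
    exact neg_injective h1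
  · exact h.integrable_gr hg'
  · have h3 := (h.integrable_gr ((h.gr_pd i).mul hg)).neg
    refine h3.congr (Eventually.of_forall fun x => ?_)
    simp only [he', Pi.neg_apply]
    ring
  · exact h.integrable_gr hg

/-- Gaussian integration by parts -/
theorem ibp_Q {f : E n → ℝ} (hf : ContDiff ℝ 1 f) (hg : Gr f) (i : Fin n) (hg' : Gr (pd i f)) :
    Ex Q (fun z => z i * f z) = Ex Q (pd i f) := by
  rw [← ibp reg_Q hf hg i hg']
  congr 1
  funext z
  rw [pd_Q]

/-! ### functions with pinched Hessian -/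

section pinch

variable {φ : E n → ℝ} {a b : ℝ}

theorem posSemidef_hess (h2 : ContDiff ℝ 2 φ) (ha : 0 ≤ a)
    (hl : ∀ z v, a * ‖v‖ ^ 2 ≤ qf (hess φ z) v) (z : E n) : (hess φ z).PosSemidef := by
  refine Matrix.PosSemidef.of_dotProduct_mulVec_nonneg ?_ fun v => ?_
  · ext i j
    simp only [Matrix.conjTranspose_apply, star_trivial]
    exact hess_symm h2 z j i
  · have h3 := hl z (WithLp.toLp 2 v)
    have h4 : qf (hess φ z) (WithLp.toLp 2 v) = star v ⬝ᵥ hess φ z *ᵥ v := by
      unfold qf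
      simp only [star_trivial, dotProduct, mulVec, Finset.mul_sum]
      refine Finset.sum_congr rfl fun i _ => Finset.sum_congr rfl fun j _ => ?_
      ring
    rw [← h4]
    exact le_trans (by positivity) h3

theorem abs_hess_le' (h2 : ContDiff ℝ 2 φ) (ha : 0 ≤ a)
    (hl : ∀ z v, a * ‖v‖ ^ 2 ≤ qf (hess φ z) v) (hu : ∀ z v, qf (hess φ z) v ≤ b * ‖v‖ ^ 2)
    (z : E n) (i j : Fin n) : |hess φ z i j| ≤ n * b := by
  refine (P254.H545.abs_entry_le (posSemidef_hess h2 ha hl z) i j).trans ?_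
  have h3 : ∀ k, hess φ z k k ≤ b := by
    intro k
    have h4 := hu z (ei k)
    rw [norm_ei] at h4
    have h5 : qf (hess φ z) (ei k) = hess φ z k k := by
      unfold qf
      simp [ei_apply]
    rw [h5] at h4
    simpa using h4
  calc (hess φ z).trace = ∑ k, hess φ z k k := rfl
    _ ≤ ∑ _k : Fin n, b := Finset.sum_le_sum fun k _ => h3 k
    _ = n * b := by simp

theorem bdd2 (h2 : ContDiff ℝ 2 φ) {B : ℝ} (hB : ∀ z i j, |hess φ z i j| ≤ B) (hB0 : 0 ≤ B)
    (z : E n) : ‖iteratedFDeriv ℝ 2 φ z‖ ≤ n ^ 2 * B := by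
  refine ContinuousMultilinearMap.opNorm_le_bound (by positivity) fun m => ?_
  rw [iteratedFDeriv_two_apply, Fin.prod_univ_two, Real.norm_eq_abs]
  set u := m 0
  set v := m 1
  have e : fderiv ℝ (fderiv ℝ φ) z u v = ∑ i, ∑ j, u i * v j * hess φ z i j := by
    conv_lhs => rw [← sum_smul_ei u, ← sum_smul_ei v]
    simp only [map_sum, map_smul, _root_.sum_apply, _root_.smul_apply,
      smul_eq_mul, hess_eq h2, Finset.mul_sum]
    rw [Finset.sum_comm]
    refine Finset.sum_congr rfl fun i _ => Finset.sum_congr rfl fun j _ => ?_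
    ring
  rw [e]
  calc |∑ i, ∑ j, u i * v j * hess φ z i j| ≤ ∑ i, ∑ j, |u i * v j * hess φ z i j| :=
        (Finset.abs_sum_le_sum_abs _ _).trans
          (Finset.sum_le_sum fun i _ => Finset.abs_sum_le_sum_abs _ _)
    _ ≤ ∑ _i : Fin n, ∑ _j : Fin n, ‖u‖ * ‖v‖ * B := by
        refine Finset.sum_le_sum fun i _ => Finset.sum_le_sum fun j _ => ?_
        rw [abs_mul, abs_mul]
        exact mul_le_mul (mul_le_mul (abs_coord_le u i) (abs_coord_le v j) (abs_nonneg _)
          (norm_nonneg _)) (hB z i j) (abs_nonneg _) (by positivity)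
    _ = n ^ 2 * B * (‖u‖ * ‖v‖) := by simp; ring

theorem pinch_bdd (h2 : ContDiff ℝ 2 φ) (ha : 0 ≤ a)
    (hl : ∀ z v, a * ‖v‖ ^ 2 ≤ qf (hess φ z) v) (hu : ∀ z v, qf (hess φ z) v ≤ b * ‖v‖ ^ 2) :
    ∃ B, ∀ z, ‖iteratedFDeriv ℝ 2 φ z‖ ≤ B := by
  refine ⟨n ^ 2 * |n * b|, fun z => bdd2 h2 (fun z i j => ?_) (abs_nonneg _) z⟩
  exact (abs_hess_le' h2 ha hl hu z i j).trans (le_abs_self _)

theorem inner_grad (φ : E n → ℝ) (z v : E n) : inner ℝ (gradient φ z) v = fderiv ℝ φ z v := by
  unfold gradient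
  rw [InnerProductSpace.toDual_symm_apply]

theorem grad_coord (φ : E n → ℝ) (z : E n) (j : Fin n) : gradient φ z j = pd j φ z := by
  unfold pd
  rw [← inner_grad, ei, EuclideanSpace.inner_single_right]
  simp

theorem continuous_grad (h2 : ContDiff ℝ 2 φ) : Continuous (gradient φ) := by
  unfold gradient
  exact (LinearIsometryEquiv.continuous _).comp (h2.continuous_fderiv (by norm_num))

theorem lower_at (h2 : ContDiff ℝ 2 φ) (hl : ∀ z v, a * ‖v‖ ^ 2 ≤ qf (hess φ z) v) (z w : E n) :
    φ z + inner ℝ (gradient φ z) (w - z) + a / 2 * ‖w - z‖ ^ 2 ≤ φ w := by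
  have hf : ContDiff ℝ 2 (fun u => φ (z + u)) := h2.comp (contDiff_const.add contDiff_id)
  have hp : ∀ (g : E n → ℝ) (i : Fin n) (u : E n), pd i (fun u => g (z + u)) u = pd i g (z + u) := by
    intro g i u
    unfold pd
    rw [fderiv_comp_add_left]
  have hh : ∀ u, hess (fun u => φ (z + u)) u = hess φ (z + u) := by
    intro u
    ext i j
    unfold hess
    have e : pd j (fun u => φ (z + u)) = fun u => pd j φ (z + u) := funext fun u => hp φ j u
    rw [e, hp]
  have h3 := lower_quad hf (c := a) (fun x v => by rw [hh]; exact hl _ _) (w - z)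
  rw [fderiv_comp_add_left] at h3
  simp only [add_zero, add_sub_cancel] at h3
  rw [inner_grad]
  exact h3

theorem grad_mono (h2 : ContDiff ℝ 2 φ) (hl : ∀ z v, a * ‖v‖ ^ 2 ≤ qf (hess φ z) v) (z w : E n) :
    a * ‖w - z‖ ^ 2 ≤ inner ℝ (gradient φ w - gradient φ z) (w - z) := by
  have h3 := lower_at h2 hl z w
  have h4 := lower_at h2 hl w z
  have e1 : inner ℝ (gradient φ w) (z - w) = - inner ℝ (gradient φ w) (w - z) := by
    rw [← inner_neg_right, neg_sub]
  have e2 : ‖z - w‖ = ‖w - z‖ := norm_sub_rev _ _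
  rw [e1, e2] at h4
  rw [inner_sub_left]
  linarith

theorem grad_dist (h2 : ContDiff ℝ 2 φ) (ha : 0 < a)
    (hl : ∀ z v, a * ‖v‖ ^ 2 ≤ qf (hess φ z) v) (z w : E n) :
    ‖w - z‖ ≤ a⁻¹ * ‖gradient φ w - gradient φ z‖ := by
  have h3 := grad_mono h2 hl z w
  have h4 := real_inner_le_norm (gradient φ w - gradient φ z) (w - z)
  rw [inv_mul_eq_div, le_div_iff₀ ha]
  rcases (norm_nonneg (w - z)).eq_or_lt with h0 | h0
  · rw [← h0, zero_mul]; exact norm_nonneg _
  · nlinarith

theorem grad_inj (h2 : ContDiff ℝ 2 φ) (ha : 0 < a)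
    (hl : ∀ z v, a * ‖v‖ ^ 2 ≤ qf (hess φ z) v) : Function.Injective (gradient φ) := by
  intro z w hzw
  have h3 := grad_dist h2 ha hl z w
  rw [hzw, sub_self, norm_zero, mul_zero] at h3
  have h4 := norm_le_zero_iff.1 h3
  exact (sub_eq_zero.1 h4).symm

theorem grad_surj (h2 : ContDiff ℝ 2 φ) (ha : 0 < a)
    (hl : ∀ z v, a * ‖v‖ ^ 2 ≤ qf (hess φ z) v) : Function.Surjective (gradient φ) := by
  intro x
  have hcont : Continuous (fun y => φ y - inner ℝ x y) := h2.continuous.sub (by fun_prop)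
  have hlim : Tendsto (fun y => φ y - inner ℝ x y) (cocompact (E n)) atTop := by
    have h1 : ∀ y : E n, φ 0 - ‖gradient φ 0 - x‖ ^ 2 / a + a / 4 * ‖y‖ ^ 2 ≤ φ y - inner ℝ x y := by
      intro y
      have h2 := lower_at h2 hl 0 y
      rw [sub_zero] at h2
      have h3 := abs_real_inner_le_norm (gradient φ 0 - x) y
      rw [inner_sub_left] at h3
      have h3' := (abs_le.1 h3).1
      have h4 : ‖gradient φ 0 - x‖ * ‖y‖ ≤ ‖gradient φ 0 - x‖ ^ 2 / a + a / 4 * ‖y‖ ^ 2 := by
        have : 0 ≤ (‖gradient φ 0 - x‖ - a / 2 * ‖y‖) ^ 2 / a := by positivity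
        have h5 : (‖gradient φ 0 - x‖ - a / 2 * ‖y‖) ^ 2 / a
            = ‖gradient φ 0 - x‖ ^ 2 / a - ‖gradient φ 0 - x‖ * ‖y‖ + a / 4 * ‖y‖ ^ 2 := by
          field_simp
          ring
        linarith
      linarith
    refine tendsto_atTop_mono h1 ?_
    have h6 : Tendsto (fun y : E n => ‖y‖) (cocompact (E n)) atTop := tendsto_norm_cocompact_atTop
    have h7 : Tendsto (fun y : E n => a / 4 * ‖y‖ ^ 2) (cocompact (E n)) atTop :=
      ((tendsto_pow_atTop two_ne_zero).comp h6).const_mul_atTop (by positivity)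
    exact tendsto_atTop_add_const_left _ _ h7
  obtain ⟨y, hy⟩ := hcont.exists_forall_le hlim
  refine ⟨y, ?_⟩
  have hmin : IsLocalMin (fun y => φ y - inner ℝ x y) y := Filter.Eventually.of_forall hy
  have hder : HasFDerivAt (fun y => φ y - inner ℝ x y) (fderiv ℝ φ y - innerSL ℝ x) y :=
    ((h2.differentiable (by norm_num)) y).hasFDerivAt.sub (innerSL ℝ x).hasFDerivAt
  have h0 := hmin.hasFDerivAt_eq_zero hder
  refine ext_inner_right ℝ fun v => ?_
  have h8 := DFunLike.congr_fun h0 v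
  rw [inner_grad]
  simp at h8
  linarith

end pinch

/-! ### the potentials of block S -/

section bp

variable {φ V : E n → ℝ} {a b M κ c C : ℝ}

theorem gr_φ (h : BP φ V a b M κ) : Gr φ := by
  obtain ⟨B, hB⟩ := pinch_bdd h.C2 h.a_pos.le h.lower h.upper
  exact gr_of_bdd h.C2 hB

theorem gr_dφ (h : BP φ V a b M κ) (i : Fin n) : Gr (pd i φ) := by
  obtain ⟨B, hB⟩ := pinch_bdd h.C2 h.a_pos.le h.lower h.upper
  exact gr_pd_of_bdd h.C2 hB i

theorem gr_ddφ (h : BP φ V a b M κ) (i j : Fin n) : Gr (fun x => hess φ x i j) := by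
  obtain ⟨B, hB⟩ := pinch_bdd h.C2 h.a_pos.le h.lower h.upper
  exact gr_hess_of_bdd h.C2 hB i j

/-- `E z_i T_j = E ∂_i T_j` -/
theorem stein (h : BP φ V a b M κ) (i j : Fin n) :
    ∫ z, z i * gradient φ z j ∂(law Q) = Ex Q (fun z => hess φ z i j) := by
  rw [int_law reg_Q]
  have h1 := ibp_Q (f := pd j φ) (contDiff_pd h.C2 (by norm_num) j) (gr_dφ h j) i (gr_ddφ h i j)
  simp only [grad_coord]
  exact h1

/-- the gradient maps the Gaussian to the law of `e^{-V}` -/
theorem map_grad (hP : StmtPush) (hV : Reg V c C) (h : BP φ V a b M κ) :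
    (law Q).map (gradient φ) = law V := by
  have h1 := isProb_law hV
  have h2 := isProb_law (reg_Q (n := n))
  have hm : Measurable (gradient φ) := (continuous_grad h.C2).measurable
  have h3 : IsProbabilityMeasure ((law Q).map (gradient φ)) :=
    Measure.isProbabilityMeasure_map hm.aemeasurable
  refine eq_of_integral fun s hs => ?_
  rw [integral_map hm.aemeasurable ((measurable_const.indicator hs).aestronglyMeasurable),
    int_law reg_Q, int_law hV]
  exact ((hP n φ V a b M κ h).1 _).symm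

theorem pot (hP : StmtPush) (hV : Reg V c C) (h : BP φ V a b M κ) :
    P254.H545.Pot (law Q) (law V) φ (gradient φ) (Function.invFun (gradient φ)) := by
  have hinj := grad_inj h.C2 h.a_pos h.lower
  have hsurj := grad_surj h.C2 h.a_pos h.lower
  have hr : ∀ y, gradient φ (Function.invFun (gradient φ) y) = y := fun y =>
    Function.invFun_eq (hsurj y)
  have hlip : ∀ y y', ‖Function.invFun (gradient φ) y - Function.invFun (gradient φ) y'‖
      ≤ a⁻¹ * ‖y - y'‖ := by
    intro y y'
    have h1 := grad_dist h.C2 h.a_pos h.lower (Function.invFun (gradient φ) y')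
      (Function.invFun (gradient φ) y)
    rwa [hr, hr] at h1
  have ha : 0 ≤ a⁻¹ := inv_nonneg.2 h.a_pos.le
  refine ⟨fun z w => ?_, Function.leftInverse_invFun hinj, hr, (continuous_grad h.C2).measurable,
    ?_, integrable_law_gr reg_Q (gr_φ h), map_grad hP hV h, a⁻¹, ha, hlip⟩
  · have h1 := lower_at h.C2 h.lower z w
    have h2 : 0 ≤ a / 2 * ‖w - z‖ ^ 2 := by
      have := h.a_pos
      positivity
    linarith
  · have h2 : LipschitzWith (Real.toNNReal a⁻¹) (Function.invFun (gradient φ)) :=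
      LipschitzWith.of_dist_le_mul fun y y' => by
        rw [dist_eq_norm, dist_eq_norm, Real.coe_toNNReal _ ha]
        exact hlip y y'
    exact h2.continuous.measurable

/-- the pointwise trace inequality -/
theorem trace_le {S H : Matrix (Fin n) (Fin n) ℝ} (hS : S.PosSemidef)
    (hH : ∀ v : E n, a * ‖v‖ ^ 2 ≤ qf H v) : a * S.trace ≤ ∑ i, ∑ j, S i j * H i j := by
  obtain ⟨B, rfl⟩ := CStarAlgebra.nonneg_iff_eq_star_mul_self.1 hS.nonneg
  rw [star_eq_conjTranspose]
  have e1 : ∀ i j, (Bᴴ * B) i j = ∑ k, B k i * B k j := by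
    intro i j
    rw [Matrix.mul_apply]
    simp
  have e2 : ∑ i, ∑ j, (Bᴴ * B) i j * H i j = ∑ k, qf H (WithLp.toLp 2 (B k)) := by
    have e3 : ∀ i, ∑ j, (Bᴴ * B) i j * H i j = ∑ k, ∑ j, B k i * B k j * H i j := by
      intro i
      rw [Finset.sum_comm]
      refine Finset.sum_congr rfl fun j _ => ?_
      rw [e1, Finset.sum_mul]
    simp only [e3]
    rw [Finset.sum_comm]
    unfold qf
    refine Finset.sum_congr rfl fun k _ => Finset.sum_congr rfl fun i _ =>
      Finset.sum_congr rfl fun j _ => ?_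
    simp only
    ring
  have e3 : (Bᴴ * B).trace = ∑ k, ‖(WithLp.toLp 2 (B k) : E n)‖ ^ 2 := by
    unfold Matrix.trace
    simp only [Matrix.diag_apply, e1, norm_sq_eq_sum]
    rw [Finset.sum_comm]
    refine Finset.sum_congr rfl fun i _ => Finset.sum_congr rfl fun j _ => ?_
    ring
  rw [e2, e3, Finset.mul_sum]
  exact Finset.sum_le_sum fun k _ => hH _

theorem int_sum2 {μ : Measure (E n)} (S : Matrix (Fin n) (Fin n) ℝ) {f : Fin n → Fin n → E n → ℝ}
    (hf : ∀ i j, Integrable (f i j) μ) :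
    Integrable (fun z => ∑ i, ∑ j, S i j * f i j z) μ ∧
      ∫ z, ∑ i, ∑ j, S i j * f i j z ∂μ = ∑ i, ∑ j, S i j * ∫ z, f i j z ∂μ := by
  have h1 : ∀ i, Integrable (fun z => ∑ j, S i j * f i j z) μ := fun i =>
    integrable_finsetSum _ fun j _ => (hf i j).const_mul _
  refine ⟨integrable_finsetSum _ fun i _ => h1 i, ?_⟩
  rw [integral_finsetSum _ fun i _ => h1 i]
  refine Finset.sum_congr rfl fun i _ => ?_
  rw [integral_finsetSum _ fun j _ => (hf i j).const_mul _]
  refine Finset.sum_congr rfl fun j _ => ?_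
  rw [integral_const_mul]

/-- the lower bound needed for the existence of the gauge -/
theorem lower_bound (h : BP φ V a b M κ) {S : Matrix (Fin n) (Fin n) ℝ} (hS : S.PosSemidef) :
    a * S.trace ≤ ∫ z, inner ℝ (P254.H545.act S (gradient φ z)) z ∂(law Q) := by
  have h0 := isProb_law (reg_Q (n := n))
  have hi : ∀ i j, Integrable (fun z : E n => z i * gradient φ z j) (law Q) := by
    intro i j
    simp only [grad_coord]
    exact integrable_law_gr reg_Q ((Gr.coord i).mul (gr_dφ h j))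
  have e1 : ∀ z : E n, inner ℝ (P254.H545.act S (gradient φ z)) z
      = ∑ i, ∑ j, S i j * (z i * gradient φ z j) := by
    intro z
    have e2 : P254.H545.act S (gradient φ z) = lin S (gradient φ z) := rfl
    rw [e2]
    unfold lin
    rw [PiLp.inner_apply]
    refine Finset.sum_congr rfl fun i _ => ?_
    simp only [mulVec, dotProduct, RCLike.inner_apply, conj_trivial, Finset.mul_sum]
    refine Finset.sum_congr rfl fun j _ => ?_
    ring
  have e3 : ∫ z, inner ℝ (P254.H545.act S (gradient φ z)) z ∂(law Q)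
      = ∫ z, ∑ i, ∑ j, S i j * hess φ z i j ∂(law Q) := by
    have h2 := int_sum2 S hi
    have h3 := int_sum2 S fun i j => integrable_law_gr reg_Q (gr_ddφ h i j)
    rw [integral_congr_ae (Eventually.of_forall e1), h2.2, h3.2]
    refine Finset.sum_congr rfl fun i _ => Finset.sum_congr rfl fun j _ => ?_
    rw [stein h i j, int_law reg_Q]
  rw [e3]
  calc a * S.trace = ∫ _z : E n, a * S.trace ∂(law Q) := by simp
    _ ≤ _ := integral_mono (integrable_const _)
      (int_sum2 S fun i j => integrable_law_gr reg_Q (gr_ddφ h i j)).1 fun z => trace_le hS (h.lower z)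

end bp

/-- **S-GAUGE** -/
theorem stmtGauge (hE : StmtEX) (hP : StmtPush) : StmtGauge := by
  intro n V c C hV
  have hinv : ∀ L : Matrix (Fin n) (Fin n) ℝ, L.PosDef → L⁻¹.det ≠ 0 := by
    intro L hL
    rw [Matrix.det_nonsing_inv]
    simpa using hL.det_pos.ne'
  have key : ∀ L : Matrix (Fin n) (Fin n) ℝ, ∃ (c' C' : ℝ) (φ : E n → ℝ) (a b M κ : ℝ), L.PosDef →
      Reg (fun x => V (lin L⁻¹ x)) c' C' ∧ BP φ (fun x => V (lin L⁻¹ x)) a b M κ := by
    intro L
    by_cases hL : L.PosDef
    · obtain ⟨c', C', h1⟩ := reg_lin hV (hinv L hL)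
      obtain ⟨φ, a, b, M, κ, h2⟩ := hE n _ c' C' h1
      exact ⟨c', C', φ, a, b, M, κ, fun _ => ⟨h1, h2⟩⟩
    · exact ⟨0, 0, fun _ => 0, 0, 0, 0, 0, fun h => absurd h hL⟩
  choose c' C' φ a b M κ hk using key
  have h0 := isProb_law (reg_Q (n := n))
  have h1 := isProb_law hV
  have hF : P254.H545.Fam (law Q) (law V) φ (fun L => gradient (φ L))
      (fun L => Function.invFun (gradient (φ L))) := by
    refine ⟨law_sq reg_Q, law_sq hV, fun L hL => ?_⟩
    rw [law_map hV hL.det_pos.ne']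
    exact pot hP (hk L hL).1 (hk L hL).2
  have hone : (1 : Matrix (Fin n) (Fin n) ℝ).PosDef := Matrix.PosDef.one
  obtain ⟨L, hL, hg⟩ := hF.exists_gauge (hk 1 hone).2.a_pos
    (fun S hS => lower_bound (hk 1 hone).2 hS) (fun L hL i j => by
      rw [stein (hk L hL).2 i j, stein (hk L hL).2 j i]
      congr 1
      funext z
      exact hess_symm (hk L hL).2.C2 z i j)
  refine ⟨L⁻¹, c' L, C' L, hinv L hL, (hk L hL).1, φ L, a L, b L, M L, κ L, (hk L hL).2,
    fun i j => ?_⟩
  rw [← stein (hk L hL).2 i j]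
  exact hg i j

end Vale.Agent.P254.S.H545
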